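import Vale.Agent.P181.S.Eng3
import Vale.Agent.P181.D.L2

namespace Vale.Agent.P181.K

theorem ckB2 : chkB 78 2 nr2 ln2 lv2 14 2 0 39 = true := by
  decide +kernel

end Vale.Agent.P181.K
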