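import Vale.Agent.P181.S.Eng3
import Vale.Agent.P181.D.Zn
import Vale.Agent.P181.D.C4

namespace Vale.Agent.P181.K

theorem ckU13 : covB VV zT zN [ct21] 21 1 = true := by
  decide +kernel

end Vale.Agent.P181.K
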